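import Vale.Agent.P297.Gen.H516.Asm

/-!
The last step for pencils of hyperelliptic curves of any genus.
-/

set_option linter.unusedSectionVars false
set_option linter.style.haveILetI false

open CategoryTheory AlgebraicGeometry IntermediateField Polynomial

namespace Vale.Agent.P297.Gg

open Vale.Agent.P297 Vale.Agent.P297.H839 Vale.Agent.P297.H516 Vale.Agent.P297.H878
  Vale.Agent.P297.Gen

/-- Enlarging an algebraically closed subfield which does not contain `z`. -/
theorem exists_max_closed {N : Type} [Field N] [Algebra ℂ N] (M : IntermediateField ℂ N)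
    (hM : ∀ u : N, IsAlgebraic M u → u ∈ M) {z : N} (hz : z ∉ M) :
    ∃ M' : IntermediateField ℂ N, (∀ u : N, IsAlgebraic M' u → u ∈ M') ∧ M ≤ M' ∧ z ∉ M' ∧
      ∀ u : N, IsAlgebraic (IntermediateField.adjoin M' {z}) u := by
  have htr : Transcendental M z := fun h => hz (hM z h)
  have hs : AlgebraicIndepOn M id ({z} : Set N) :=
    (algebraicIndependent_unique_type_iff (ι := ({z} : Set N))).2 htr
  obtain ⟨t, hzt, ht⟩ := exists_isTranscendenceBasis_superset hs
  have hzt' : z ∈ t := hzt rfl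
  let M₁ : IntermediateField M N := IntermediateField.adjoin M (t \ {z})
  let M₀ : IntermediateField ℂ N := M₁.restrictScalars ℂ
  let M' : IntermediateField ℂ N := (algebraicClosure M₀ N).restrictScalars ℂ
  have hmem : ∀ u, u ∈ M' ↔ IsAlgebraic M₀ u := fun u => mem_algebraicClosure_iff
  have hMM : M ≤ M' := by
    intro m hm
    rw [hmem]
    exact isAlgebraic_algebraMap (⟨m, M₁.algebraMap_mem ⟨m, hm⟩⟩ : M₀)
  have hTM : ∀ u ∈ t, u ≠ z → u ∈ M' := by
    intro u hu huz
    rw [hmem]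
    exact isAlgebraic_algebraMap
      (⟨u, IntermediateField.subset_adjoin M _ ⟨hu, huz⟩⟩ : M₀)
  refine ⟨M', ?_, hMM, ?_, ?_⟩
  · intro u hu
    have h1 : IsAlgebraic (algebraicClosure M₀ N) u := hu
    have h2 : u ∈ algebraicClosure (algebraicClosure M₀ N) N := mem_algebraicClosure_iff.2 h1
    rw [algebraicClosure.algebraicClosure_eq_bot, IntermediateField.mem_bot] at h2
    obtain ⟨y, rfl⟩ := h2
    exact y.2
  · rw [hmem]
    change Transcendental (IntermediateField.adjoin M (t \ {z})) z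
    rw [IntermediateField.transcendental_adjoin_iff]
    have h1 := ht.1.transcendental_adjoin (s := {i : t | (i : N) ≠ z}) (i := ⟨z, hzt'⟩)
      (fun h => h rfl)
    have h2 : ((↑) : t → N) '' {i : t | (i : N) ≠ z} = t \ {z} := by
      ext u
      constructor
      · rintro ⟨⟨u, hu⟩, h3, rfl⟩
        exact ⟨hu, h3⟩
      · rintro ⟨h3, h4⟩
        exact ⟨⟨u, h3⟩, h4, rfl⟩
    rw [h2] at h1
    exact h1
  · intro u
    have h1 : ∀ a ∈ Algebra.adjoin M (Set.range ((↑) : t → N)),
        a ∈ IntermediateField.adjoin M' {z} := by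
      intro a ha
      induction ha using Algebra.adjoin_induction with
      | mem a ha =>
        obtain ⟨⟨a, ha⟩, rfl⟩ := ha
        by_cases haz : a = z
        · subst haz
          exact IntermediateField.mem_adjoin_simple_self M' _
        · exact (IntermediateField.adjoin M' {z}).algebraMap_mem ⟨a, hTM a ha haz⟩
      | algebraMap m => exact (IntermediateField.adjoin M' {z}).algebraMap_mem ⟨m, hMM m.2⟩
      | add a b _ _ ha hb => exact add_mem ha hb
      | mul a b _ _ ha hb => exact mul_mem ha hb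
    have h2 := ht.isAlgebraic.isAlgebraic u
    exact alg_mono
      { toFun := fun a : Algebra.adjoin M (Set.range ((↑) : t → N)) =>
          (⟨a, h1 a a.2⟩ : IntermediateField.adjoin M' {z})
        map_one' := rfl
        map_zero' := rfl
        map_mul' := fun _ _ => rfl
        map_add' := fun _ _ => rfl } (fun _ => rfl)
      (fun _ _ hab => Subtype.ext
        (congrArg (fun u : IntermediateField.adjoin M' {z} => (u : N)) hab)) h2

/-- The automorphism which changes the sign of a square root. -/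
theorem exists_flip' {N : Type} [Field N] [Algebra ℂ N] [IsAlgClosed N]
    (M : IntermediateField ℂ N) (hM : ∀ u : N, IsAlgebraic M u → u ∈ M) {fN : N[X]}
    (hs : fN.Separable) (hd : 0 < fN.natDegree) (hfM : ∀ k, fN.coeff k ∈ M) {z w : N}
    (hz : z ∉ M) (hw : w ^ 2 = fN.eval z) :
    w ≠ 0 ∧ ∃ g : N ≃ₐ[ℂ] N, (∀ m ∈ M, g m = m) ∧ g z = z ∧ g w = - w := by
  obtain ⟨M', hM', hMM, hz', halg⟩ := exists_max_closed M hM hz
  obtain ⟨F, hF⟩ : ∃ F : M'[X], F.map (algebraMap M' N) = fN := by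
    have h : fN ∈ Polynomial.lifts (algebraMap M' N) := by
      rw [Polynomial.lifts_iff_coeff_lifts]
      intro k
      exact ⟨⟨_, hMM (hfM k)⟩, rfl⟩
    exact (Polynomial.mem_lifts _).1 h
  have hFs : F.Separable := by
    rw [← hF, separable_map] at hs
    exact hs
  have hFd : 0 < F.natDegree := by
    rw [← hF, natDegree_map] at hd
    exact hd
  have hFe : w ^ 2 = Polynomial.aeval z F := by
    rw [hw, ← hF, Polynomial.eval_map]
    rfl
  refine ⟨?_, ?_⟩
  · intro h0
    have h1 := sqrt_notMem M' hM' F hFs hFd hz' hFe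
    apply h1
    rw [h0]
    exact zero_mem _
  · obtain ⟨g, hg1, hg2, hg3⟩ := ext_emb M' hM' F hFs hFd hz' hz' hFe
      (by rw [neg_sq]; exact hFe : (-w) ^ 2 = _) halg halg
    exact ⟨g, fun m hm => hg1 m (hMM hm), hg2, hg3⟩

section

variable {S : Scheme.{0}} {f : S ⟶ Spec (.of ℂ)} [IsProper f] {C : Type} [CommRing C] [Algebra ℂ C]
  [Algebra.FiniteType ℂ C] {j : Spec (.of C) ⟶ S}
  {hj : j ≫ f = Spec.map (CommRingCat.ofHom (algebraMap ℂ C))}

/-- **Flipping one point.** -/
theorem flip_good {K N : Type} [Field K] [Algebra ℂ K] [Field N] [Algebra ℂ N] [IsAlgClosed N]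
    {l x y : K} (hind : AlgebraicIndependent ℂ ![l, x])
    (htop : IntermediateField.adjoin ℂ {l, x, y} = ⊤)
    (hy2 : y ^ 2 ∈ IntermediateField.adjoin ℂ (Set.range ![l, x]))
    {fN : N[X]} (hs : fN.Separable) (hd : 0 < fN.natDegree)
    (M : IntermediateField ℂ N) (hM : ∀ u : N, IsAlgebraic M u → u ∈ M)
    (hfM : ∀ k, fN.coeff k ∈ M) {φB : K →ₐ[ℂ] N} (hlM : φB l ∈ M)
    (hB : φB x ∉ M) (hBy : (φB y) ^ 2 = fN.eval (φB x)) (ι : C →ₐ[ℂ] K)
    {J : Type} [Fintype J] (ρ : J → (K →ₐ[ℂ] N)) (hρ : ∀ i k, ρ i k ∈ M)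
    (hAB : ∑ i, Finsupp.single ((ρ i).comp ι) (1 : ℤ) + Finsupp.single (φB.comp ι) 1 ∈
      Good f j hj (Rat f) N) :
    Finsupp.single (φB.comp ι) (2 : ℤ) ∈ Good f j hj (Rat f) N := by
  obtain ⟨hy0, g, hgM, hgx, hgy⟩ := exists_flip' M hM hs hd hfM hB hBy
  have h1 := Good.map g.toAlgHom hAB
  rw [Finsupp.mapDomain_add, Finsupp.mapDomain_finsetSum, Finsupp.mapDomain_single] at h1
  have h2 : ∀ i, g.toAlgHom.comp ((ρ i).comp ι) = (ρ i).comp ι := by
    intro i
    apply AlgHom.ext
    intro c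
    exact hgM _ (hρ i (ι c))
  simp only [Finsupp.mapDomain_single, h2] at h1
  let φB' : K →ₐ[ℂ] N := g.toAlgHom.comp φB
  have h3 : g.toAlgHom.comp (φB.comp ι) = φB'.comp ι := rfl
  rw [h3] at h1
  have h4 := conj_good (f := f) (j := j) (hj := hj) hind htop hy2 (φ := φB) (φ' := φB')
    (hgM _ hlM) hgx hgy hy0 ι
  have h5 := AddSubgroup.add_mem _ (AddSubgroup.sub_mem _ hAB h1) h4
  have h6 : ∑ i, Finsupp.single ((ρ i).comp ι) (1 : ℤ) + Finsupp.single (φB.comp ι) 1 -
      (∑ i, Finsupp.single ((ρ i).comp ι) (1 : ℤ) + Finsupp.single (φB'.comp ι) 1) +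
      (Finsupp.single (φB.comp ι) 1 + Finsupp.single (φB'.comp ι) 1) =
      Finsupp.single (φB.comp ι) 2 := by
    have h7 : (Finsupp.single (φB.comp ι) (2 : ℤ)) = Finsupp.single (φB.comp ι) (1 : ℤ) +
        Finsupp.single (φB.comp ι) 1 := by
      rw [← Finsupp.single_add]
      rfl
    rw [h7]
    abel
  rw [h6] at h5
  exact h5

end

end Vale.Agent.P297.Gg
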