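import Vale.Agent.P297.Gg.Core
import Vale.Agent.P297.Gg.Block
import Vale.Agent.P297.Gg.H878.EndG

/-!
The assembly for pencils of hyperelliptic curves of any genus: from the linear system to the
equivalence of points.
-/

set_option linter.unusedSectionVars false
set_option linter.style.haveILetI false

open CategoryTheory AlgebraicGeometry IntermediateField Polynomial

namespace Vale.Agent.P297.Gg

open Vale.Agent.P297 Vale.Agent.P297.H839 Vale.Agent.P297.H516 Vale.Agent.P297.H878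
  Vale.Agent.P297.Gen

theorem HPencil.isDouble {K : Type} [Field K] [Algebra ℂ K] {g : ℕ} {l x y : K}
    {f : (IntermediateField.adjoin ℂ {l})[X]} (h : HPencil g l x y f) : IsDouble K := by
  refine ⟨IntermediateField.adjoin ℂ (Set.range ![l, x]), y, ⟨2, _, h.ind, rfl⟩, h.sq_mem, ?_⟩
  rw [eq_top_iff, ← h.top, IntermediateField.adjoin_le_iff]
  rintro k (rfl | rfl | rfl)
  · exact IntermediateField.subset_adjoin _ _
      (Or.inl (IntermediateField.subset_adjoin _ _ ⟨0, rfl⟩))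
  · exact IntermediateField.subset_adjoin _ _
      (Or.inl (IntermediateField.subset_adjoin _ _ ⟨1, rfl⟩))
  · exact IntermediateField.subset_adjoin _ _ (Or.inr rfl)

theorem HPencil.eval_emb {K N : Type} [Field K] [Algebra ℂ K] [Field N] [Algebra ℂ N] {g : ℕ}
    {l x y : K} {f : (IntermediateField.adjoin ℂ {l})[X]} (h : HPencil g l x y f)
    (lam : IntermediateField.adjoin ℂ {l} →ₐ[ℂ] N) (φ : K →ₐ[ℂ] N)
    (hφ : ∀ e : IntermediateField.adjoin ℂ {l}, φ e = lam e) :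
    φ y ^ 2 = (f.map lam.toRingHom).eval (φ x) := by
  rw [← map_pow, h.eq, Polynomial.aeval_def, Polynomial.eval_map]
  refine (Polynomial.hom_eval₂ f _ φ.toRingHom x).trans ?_
  congr 1
  exact RingHom.ext fun e => hφ e

section

variable {S : Scheme.{0}} {f : S ⟶ Spec (.of ℂ)} [IsProper f] {C : Type} [CommRing C] [Algebra ℂ C]
  [Algebra.FiniteType ℂ C] {j : Spec (.of C) ⟶ S}
  {hj : j ≫ f = Spec.map (CommRingCat.ofHom (algebraMap ℂ C))}

/-- Twice a residual point. -/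
theorem asmG_two {K N : Type} [Field K] [Algebra ℂ K] [Field N] [Algebra ℂ N] [IsAlgClosed N]
    {g : ℕ} {l x y : K} {F : (IntermediateField.adjoin ℂ {l})[X]} (h : HPencil g l x y F)
    (lam : IntermediateField.adjoin ℂ {l} →ₐ[ℂ] N) (L : IntermediateField ℂ N)
    (hlamL : ∀ e, lam e ∈ L) {B : Type} [Fintype B] {n : B → ℕ} {J : Type} [Fintype J]
    (σ : (Σ b, Fin (n b)) → (K →ₐ[ℂ] N)) (ρ : J → (K →ₐ[ℂ] N))
    (hσ : ∀ i (e : IntermediateField.adjoin ℂ {l}), σ i e = lam e)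
    (hρ : ∀ i (e : IntermediateField.adjoin ℂ {l}), ρ i e = lam e) (hρL : ∀ i, ρ i x ∈ L)
    (E : B → IntermediateField ℂ K) (hr : ∀ b, IsRational (E b))
    (hx : ∀ b, E b ⊔ IntermediateField.adjoin ℂ {x} = ⊤)
    (hE : ∀ b, Module.finrank (E b) K = n b) (hpos : ∀ b, 0 < n b)
    (hagree : ∀ b i i', ∀ k ∈ E b, σ ⟨b, i⟩ k = σ ⟨b, i'⟩ k)
    (hinj : Function.Injective fun i => Sum.elim σ ρ i x) {R : Type} [Fintype R] [DecidableEq R]
    (τ : R → (K →ₐ[ℂ] N)) (hτ : ∀ i (e : IntermediateField.adjoin ℂ {l}), τ i e = lam e)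
    (hτinj : Function.Injective fun i => τ i x) (hτz : ∀ k i, τ k x ≠ Sum.elim σ ρ i x)
    {α β : N[X]} {c : N}
    (hdα : 2 * α.natDegree ≤ Fintype.card ((Σ b, Fin (n b)) ⊕ J) + Fintype.card R)
    (hdβ : 2 * β.natDegree + (F.map lam.toRingHom).natDegree ≤
      Fintype.card ((Σ b, Fin (n b)) ⊕ J) + Fintype.card R) (hc : c ≠ 0)
    (hn : α ^ 2 - β ^ 2 * F.map lam.toRingHom =
      Polynomial.C c * (∏ i, (X - Polynomial.C (Sum.elim σ ρ i x))) *
        (∏ k, (X - Polynomial.C (τ k x))))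
    (hv : ∀ i, α.eval (Sum.elim σ ρ i x) + β.eval (Sum.elim σ ρ i x) * Sum.elim σ ρ i y = 0)
    (hvτ : ∀ k, α.eval (τ k x) + β.eval (τ k x) * τ k y = 0)
    (hβ : ∀ i, β.eval (Sum.elim σ ρ i x) ≠ 0) (hβτ : ∀ k, β.eval (τ k x) ≠ 0)
    (r₀ : R) (hcl : ¬ Cl L ((fun k => τ k x) '' {r₀}ᶜ) (τ r₀ x)) (ι : C →ₐ[ℂ] K) :
    Finsupp.single ((τ r₀).comp ι) (2 : ℤ) ∈ Good f j hj (Rat f) N := by
  have hcard : Fintype.card (((Σ b, Fin (n b)) ⊕ J) ⊕ R) =
      Fintype.card ((Σ b, Fin (n b)) ⊕ J) + Fintype.card R := Fintype.card_sum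
  have hdiv := div_good (f := f) (j := j) (hj := hj) l x y h.ind F h.eq h.notMem h.top lam α β
    (by rw [hcard]; exact hdα) (by
      rw [hcard]
      rw [natDegree_map] at hdβ
      exact hdβ) c hc (Sum.elim (Sum.elim σ ρ) τ) (by
      rintro ((i | i) | i) e
      · exact hσ i e
      · exact hρ i e
      · exact hτ i e) (by
      rintro (i | i) (k | k) hik
      · exact congrArg Sum.inl (hinj hik)
      · exact absurd hik.symm (hτz k i)
      · exact absurd hik (hτz i k)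
      · exact congrArg Sum.inr (hτinj hik)) (by
      rw [hn, Fintype.prod_sum_type (fun i => (X - Polynomial.C (Sum.elim (Sum.elim σ ρ) τ i x)))]
      simp only [Sum.elim_inl (f := Sum.elim σ ρ) (g := τ),
        Sum.elim_inr (f := Sum.elim σ ρ) (g := τ)]
      ring) (by
      rintro (i | i)
      · exact hβ i
      · exact hβτ i) (by
      rintro (i | i)
      · exact hv i
      · exact hvτ i) ι
  rw [Fintype.sum_sum_type, Fintype.sum_sum_type, Fintype.sum_sigma] at hdiv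
  simp only [Sum.elim_inl, Sum.elim_inr] at hdiv
  have h1 : ∑ b, ∑ i, Finsupp.single ((σ ⟨b, i⟩).comp ι) (1 : ℤ) ∈ Good f j hj (Rat f) N := by
    refine AddSubgroup.sum_mem _ fun b _ => ?_
    refine fibre_sum (g := f) (j := j) (hj := hj) (E b) (hr b) x (hx b) (hE b) (hpos b)
      (fun i => σ ⟨b, i⟩) (hagree b) (fun i i' hi => ?_) ι
    have h2 := hinj (a₁ := Sum.inl ⟨b, i⟩) (a₂ := Sum.inl ⟨b, i'⟩) hi
    have h3 := Sum.inl_injective h2
    simpa using h3
  have h2 := AddSubgroup.sub_mem _ hdiv h1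
  obtain ⟨M, hM, hLM, hxM, hBM⟩ : ∃ M : IntermediateField ℂ N,
      (∀ u : N, IsAlgebraic M u → u ∈ M) ∧ L ≤ M ∧
        ((fun k => τ k x) '' {r₀}ᶜ) ⊆ (M : Set N) ∧ τ r₀ x ∉ M := by
    by_contra hne
    apply hcl
    intro M hM hLM hxM
    by_contra hBM
    exact hne ⟨M, hM, hLM, hxM, hBM⟩
  have hlM : ∀ φ : K →ₐ[ℂ] N, (∀ e : IntermediateField.adjoin ℂ {l}, φ e = lam e) → φ l ∈ M := by
    intro φ hφ
    have h3 := hφ ⟨l, IntermediateField.mem_adjoin_simple_self ℂ l⟩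
    change φ l = _ at h3
    rw [h3]
    exact hLM (hlamL _)
  refine flip_good (f := f) (j := j) (hj := hj) h.ind h.top h.sq_mem
    (fN := F.map lam.toRingHom) (h.sep.map (f := lam.toRingHom)) (by
      rw [natDegree_map]
      have := h.low
      omega) M hM (fun k => by
      rw [coeff_map]
      exact hLM (hlamL _)) (hlM _ (hτ r₀)) hBM (h.eval_emb lam (τ r₀) (hτ r₀)) ι
    (J := J ⊕ {k // k ≠ r₀}) (Sum.elim ρ fun k => τ k) ?_ ?_
  · rintro (i | ⟨i, hi⟩) k
    · exact h.range_mem hM (hlM _ (hρ i)) (hLM (hρL i)) k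
    · exact h.range_mem hM (hlM _ (hτ i)) (hxM ⟨i, hi, rfl⟩) k
  · rw [Fintype.sum_sum_type]
    simp only [Sum.elim_inl, Sum.elim_inr]
    have h3 := Fintype.sum_eq_add_sum_subtype_ne
      (fun k => Finsupp.single ((τ k).comp ι) (1 : ℤ)) r₀
    rw [h3] at h2
    convert h2 using 1
    abel

end

/-- **The assembly.** -/
theorem asmG {K N : Type} [Field K] [Algebra ℂ K] [Field N] [Algebra ℂ N] [IsAlgClosed N]
    {g a : ℕ} {l x y : K} {f : (IntermediateField.adjoin ℂ {l})[X]} (h : HPencil g l x y f)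
    (lam : IntermediateField.adjoin ℂ {l} →ₐ[ℂ] N) (L : IntermediateField ℂ N)
    (hlamL : ∀ e, lam e ∈ L)
    (hLw : ∀ w, w ∉ L → AlgebraicIndependent ℂ
      ![lam ⟨l, IntermediateField.mem_adjoin_simple_self ℂ l⟩, w])
    {n : Fin g → ℕ} {J : Type} [Fintype J] (σ : (Σ b, Fin (n b)) → (K →ₐ[ℂ] N))
    (ρ : J → (K →ₐ[ℂ] N))
    (hσ : ∀ i (e : IntermediateField.adjoin ℂ {l}), σ i e = lam e)
    (hρ : ∀ i (e : IntermediateField.adjoin ℂ {l}), ρ i e = lam e) (hρL : ∀ i, ρ i x ∈ L)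
    {bl : (Σ b, Fin (n b)) ⊕ J → Option (Fin g)}
    (hS : SysG L (f.map lam.toRingHom) g a bl (fun i => Sum.elim σ ρ i x)
      (fun i => Sum.elim σ ρ i y))
    (E : Fin g → IntermediateField ℂ K) (hr : ∀ b, IsRational (E b))
    (hx : ∀ b, E b ⊔ IntermediateField.adjoin ℂ {x} = ⊤)
    (hE : ∀ b, Module.finrank (E b) K = n b) (hpos : ∀ b, 0 < n b)
    (hagree : ∀ b i i', ∀ k ∈ E b, σ ⟨b, i⟩ k = σ ⟨b, i'⟩ k) : PointsEquivalent K := by
  classical
  obtain ⟨α, β, c, w, hdα, hdβ, hc, hn, hv, hβ, hβw, hwz, hwinj, -, hwcl⟩ := hS.core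
  have hwL : ∀ k, w k ∉ L := fun k h0 => hwcl k (Cl.of_L h0)
  have hroot : ∀ k, (α ^ 2 - β ^ 2 * f.map lam.toRingHom).eval (w k) = 0 := by
    intro k
    rw [hn, eval_mul]
    have h1 : (∏ k, (X - Polynomial.C (w k))).eval (w k) = 0 := by
      rw [eval_prod]
      exact Finset.prod_eq_zero (Finset.mem_univ k) (by simp)
    rw [h1, mul_zero]
  have hpt : ∀ k, (-(α.eval (w k) / β.eval (w k))) ^ 2 = (f.map lam.toRingHom).eval (w k) := by
    intro k
    have h1 := hroot k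
    rw [eval_sub, eval_mul, eval_pow, eval_pow] at h1
    rw [neg_sq, div_pow, div_eq_iff (pow_ne_zero 2 (hβw k))]
    linear_combination h1
  choose τ hτ hτx hτy using fun k => h.emb lam (hLw (w k) (hwL k)) (hpt k)
  have hg := hS.pos
  let r₀ : Fin g := ⟨0, hg⟩
  have hfun : (fun k => τ k x) = w := funext hτx
  have key : ∀ {S : Scheme.{0}} {F : S ⟶ Spec (.of ℂ)} [IsProper F] {C : Type} [CommRing C]
      [Algebra ℂ C] [Algebra.FiniteType ℂ C] {j : Spec (.of C) ⟶ S}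
      {hj : j ≫ F = Spec.map (CommRingCat.ofHom (algebraMap ℂ C))} (ι : C →ₐ[ℂ] K),
      Finsupp.single ((τ r₀).comp ι) (2 : ℤ) ∈ Good F j hj (Rat F) N := by
    intro S F _ C _ _ _ j hj ι
    refine asmG_two (f := F) (j := j) (hj := hj) h lam L hlamL σ ρ hσ hρ hρL E hr hx hE hpos
      hagree hS.inj τ hτ (by rw [hfun]; exact hwinj) (fun k i => by rw [hτx]; exact hwz k i)
      (α := α) (β := β) (c := c) (by rw [Fintype.card_fin]; exact hdα)
      (by rw [Fintype.card_fin]; exact hdβ) hc ?_ hv ?_ hβ ?_ r₀ ?_ ι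
    · rw [hn]
      congr 1
      exact Finset.prod_congr rfl fun k _ => by rw [hτx]
    · intro k
      have h1 := hβw k
      rw [hτx, hτy]
      field_simp
      ring
    · intro k
      rw [hτx]
      exact hβw k
    · rw [hfun, hτx]
      exact hwcl r₀
  intro S _ F _ hg u v
  refine one_of_pow_two F hg h.isDouble 1 ?_ u v
  intro u v
  obtain ⟨U, hU, hne, hi⟩ := exists_chart F hg
  letI := chartAlg F hU
  haveI := chart_finiteType F hU
  obtain ⟨i, hi, hfrac⟩ := hi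
  have h4 := global_of_good' F hU ((2 : ℤ) ^ 1) (Rat F) le_rfl ((τ r₀).comp i)
    ((τ r₀).toRingHom.injective.comp hi) (by
      rw [pow_one]
      exact key (F := F) (j := hU.fromSpec) (hj := chart_hj F hU) i) u v
  exact h4

end Vale.Agent.P297.Gg
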