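import Vale.Agent.P297.Gg.Block
import Vale.Agent.P297.Gen.H516.End
import Mathlib.RingTheory.Trace.Basic
import Mathlib.RingTheory.Derivation.Basic
import Mathlib.LinearAlgebra.Dual.Lemmas

/-!
The choice of the quotients, and the chain rule.
-/

set_option linter.unusedSectionVars false
set_option linter.style.haveILetI false

open CategoryTheory AlgebraicGeometry IntermediateField Polynomial

namespace Vale.Agent.P297.Gg

open Vale.Agent.P297 Vale.Agent.P297.H839 Vale.Agent.P297.H516 Vale.Agent.P297.H878
  Vale.Agent.P297.Gen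

/-- A basis of the dual space, each element of which factors through one of the given maps. -/
theorem choice {k W : Type} [Field k] [AddCommGroup W] [Module k W] {g : ℕ} {ι : Type}
    (t : ι → Fin g → W) (ht : ∀ u : Fin g → k, (∀ b, ∑ j, u j • t b j = 0) → u = 0) :
    ∃ (b : Fin g → ι) (ξ : Fin g → Fin g → k),
      (∀ i (u : Fin g → k), ∑ j, u j • t (b i) j = 0 → ∑ j, u j * ξ i j = 0) ∧
      (∀ u : Fin g → k, (∀ i, ∑ j, u j * ξ i j = 0) → u = 0) ∧ ∀ i, ∃ j, t (b i) j ≠ 0 := by
  classical
  let S : Set (Fin g → k) :=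
    {ξ | ∃ b, ∀ u : Fin g → k, ∑ j, u j • t b j = 0 → ∑ j, u j * ξ j = 0}
  have hS : Submodule.span k S = ⊤ := by
    by_contra hne
    obtain ⟨φ, hφ0, hφ⟩ := Submodule.exists_le_ker_of_lt_top _ (lt_top_iff_ne_top.2 hne)
    have hφs : ∀ v : Fin g → k, φ v = ∑ j, φ (Pi.single j 1) * v j := by
      intro v
      have h1 : v = ∑ j, v j • (Pi.single j 1 : Fin g → k) := by
        funext i
        simp [Finset.sum_apply, Pi.single_apply]
      conv_lhs => rw [h1]
      rw [map_sum]
      refine Finset.sum_congr rfl fun j _ => ?_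
      rw [map_smul, smul_eq_mul, mul_comm]
    have h2 : (fun j => φ (Pi.single j 1)) = (0 : Fin g → k) := by
      apply ht
      intro b
      rw [← Module.forall_dual_apply_eq_zero_iff k]
      intro η
      have h3 : (fun j => η (t b j)) ∈ S := by
        refine ⟨b, fun u hu => ?_⟩
        have h4 := congrArg η hu
        rw [map_sum, map_zero] at h4
        rw [← h4]
        exact Finset.sum_congr rfl fun j _ => by rw [map_smul, smul_eq_mul]
      have h5 : φ (fun j => η (t b j)) = 0 := hφ (Submodule.subset_span h3)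
      rw [hφs] at h5
      rw [map_sum, ← h5]
      exact Finset.sum_congr rfl fun j _ => by rw [map_smul, smul_eq_mul]
    apply hφ0
    apply LinearMap.ext
    intro v
    rw [hφs]
    refine Finset.sum_eq_zero fun j _ => ?_
    rw [congrFun h2 j]
    exact zero_mul _
  obtain ⟨B, hBS, hBspan, hBli⟩ := exists_linearIndependent k S
  rw [hS] at hBspan
  let bs : Module.Basis B k (Fin g → k) := Module.Basis.mk hBli (by
    rw [Subtype.range_coe, hBspan])
  have hbs : ∀ i, bs i = i := fun i => Module.Basis.mk_apply hBli _ i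
  let e : Fin g ≃ B := (Pi.basisFun k (Fin g)).indexEquiv bs
  have hmem : ∀ i, ((e i : B) : Fin g → k) ∈ S := fun i => hBS (e i).2
  choose b hb using hmem
  refine ⟨b, fun i => (e i : B), hb, ?_, ?_⟩
  · intro u hu
    funext j
    have h1 : ∀ v ∈ Submodule.span k B, ∑ j, u j * v j = 0 := by
      intro v hv
      induction hv using Submodule.span_induction with
      | mem v hv =>
        have h2 : ∑ j, u j * ((e (e.symm ⟨v, hv⟩) : B) : Fin g → k) j = 0 := hu (e.symm ⟨v, hv⟩)
        rw [Equiv.apply_symm_apply] at h2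
        exact h2
      | zero => simp
      | add v w _ _ hv hw =>
        simp only [Pi.add_apply, mul_add, Finset.sum_add_distrib, hv, hw, add_zero]
      | smul c v _ hv =>
        simp only [Pi.smul_apply, smul_eq_mul]
        have h3 : ∀ j, u j * (c * v j) = c * (u j * v j) := fun j => by ring
        simp only [h3]
        rw [← Finset.mul_sum, hv, mul_zero]
    have h2 := h1 (Pi.single j 1) (by rw [hBspan]; trivial)
    simpa [Pi.single_apply] using h2
  · intro i
    by_contra hcon
    push Not at hcon
    have h1 : ((e i : B) : Fin g → k) = 0 := by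
      funext j
      have h2 := hb i (Pi.single j 1) (by simp [hcon])
      simpa [Pi.single_apply] using h2
    have h2 := hBli.ne_zero (e i)
    exact h2 h1

section

variable {K : Type} [Field K] [Algebra ℂ K] {N : Type} [Field N] [Algebra ℂ N]
  {g : ℕ} {l x y : K} {f : (IntermediateField.adjoin ℂ {l})[X]}

theorem der_base (δ : Derivation (IntermediateField.adjoin ℂ {l}) K K) {e : K}
    (he : e ∈ IntermediateField.adjoin ℂ {l}) : δ e = 0 :=
  δ.map_algebraMap (⟨e, he⟩ : IntermediateField.adjoin ℂ {l})

/-- `ℂ(l, x)` is stable under the derivation. -/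
theorem der_range (δ : Derivation (IntermediateField.adjoin ℂ {l}) K K) (hδ : δ x = 1) {k : K}
    (hk : k ∈ IntermediateField.adjoin ℂ (Set.range ![l, x])) :
    δ k ∈ IntermediateField.adjoin ℂ (Set.range ![l, x]) := by
  induction hk using IntermediateField.adjoin_induction with
  | mem a ha =>
    obtain ⟨i, rfl⟩ := ha
    fin_cases i
    · change δ l ∈ _
      rw [der_base δ (IntermediateField.mem_adjoin_simple_self ℂ l)]
      exact zero_mem _
    · change δ x ∈ _
      rw [hδ]
      exact one_mem _
  | algebraMap r =>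
    rw [der_base δ (IntermediateField.algebraMap_mem _ r)]
    exact zero_mem _
  | add a b _ _ ha hb =>
    rw [map_add]
    exact add_mem ha hb
  | inv a h0 ha =>
    rw [Derivation.leibniz_inv, smul_eq_mul]
    exact mul_mem (neg_mem (pow_mem (inv_mem h0) 2)) ha
  | mul a b h0 h1 ha hb =>
    rw [Derivation.leibniz, smul_eq_mul, smul_eq_mul]
    exact add_mem (mul_mem h0 hb) (mul_mem h1 ha)

/-- If a trace does not vanish then the quotient separates the points of its fibres. -/
theorem gen_of_trace (h : HPencil g l x y f) (F : IntermediateField ℂ K) (hl : l ∈ F)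
    (h2 : 2 ≤ Module.finrank F K) (δ : Derivation (IntermediateField.adjoin ℂ {l}) K K)
    (hδ : δ x = 1) {w : K} (hw : w ∈ F) {j : ℕ}
    (hj : Algebra.trace F K (x ^ j / (y * δ w)) ≠ 0) :
    F ⊔ IntermediateField.adjoin ℂ {x} = ⊤ := by
  haveI : FiniteDimensional F K := FiniteDimensional.of_finrank_pos (by omega)
  haveI : CharZero F := charZero_of_injective_algebraMap (algebraMap ℂ F).injective
  by_contra hne
  have hle : IntermediateField.adjoin ℂ (Set.range ![l, x]) ≤
      F ⊔ IntermediateField.adjoin ℂ {x} := by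
    rw [IntermediateField.adjoin_le_iff]
    rintro _ ⟨i, rfl⟩
    fin_cases i
    · exact (le_sup_left : F ≤ _) hl
    · exact (le_sup_right : IntermediateField.adjoin ℂ {x} ≤ _)
        (IntermediateField.mem_adjoin_simple_self ℂ x)
  have hyE : y ∉ F ⊔ IntermediateField.adjoin ℂ {x} := by
    intro hy
    apply hne
    rw [eq_top_iff, ← h.top, IntermediateField.adjoin_le_iff]
    rintro k (rfl | rfl | rfl)
    · exact (le_sup_left : F ≤ _) hl
    · exact (le_sup_right : IntermediateField.adjoin ℂ {k} ≤ _)
        (IntermediateField.mem_adjoin_simple_self ℂ k)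
    · exact hy
  have hFle : F ≤ IntermediateField.adjoin ℂ (Set.range ![l, x]) := by
    intro e he
    obtain ⟨a, ha, b, hb, hab⟩ := h.span e
    by_cases hb0 : b = 0
    · rw [hab, hb0, zero_mul, add_zero]
      exact ha
    · exfalso
      apply hyE
      have h3 : y = (e - a) / b := by
        rw [eq_div_iff hb0, hab]
        ring
      rw [h3]
      exact div_mem (sub_mem ((le_sup_left : F ≤ _) he) (hle ha)) (hle hb)
  -- the hyperelliptic involution
  obtain ⟨Θ, hΘ, hΘx, hΘy⟩ := h.emb (N := K) (IntermediateField.adjoin ℂ {l}).val (z' := x)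
    (y' := -y) h.ind (by
      rw [neg_sq, h.eq, Polynomial.aeval_def, Polynomial.eval_map]
      rfl)
  have hΘl : Θ l = l := hΘ ⟨l, IntermediateField.mem_adjoin_simple_self ℂ l⟩
  have hΘr : ∀ k ∈ IntermediateField.adjoin ℂ (Set.range ![l, x]), Θ k = k := by
    intro k hk
    induction hk using IntermediateField.adjoin_induction with
    | mem a ha =>
      obtain ⟨i, rfl⟩ := ha
      fin_cases i
      · exact hΘl
      · exact hΘx
    | algebraMap r => exact Θ.commutes r
    | add a b _ _ ha hb => rw [map_add, ha, hb]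
    | inv a _ ha => rw [map_inv₀, ha]
    | mul a b _ _ ha hb => rw [map_mul, ha, hb]
  have hΘΘ : ∀ k, Θ (Θ k) = k := by
    intro k
    have h3 : Θ.comp Θ = AlgHom.id ℂ K := by
      refine emb_ext h.top ?_ ?_ ?_
      · change Θ (Θ l) = l
        rw [hΘl, hΘl]
      · change Θ (Θ x) = x
        rw [hΘx, hΘx]
      · change Θ (Θ y) = y
        rw [hΘy, map_neg, hΘy, neg_neg]
    exact congrArg (fun φ : K →ₐ[ℂ] K => φ k) h3
  let e : K ≃ₐ[F] K :=
    { toFun := Θ
      invFun := Θ
      left_inv := hΘΘ
      right_inv := hΘΘ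
      map_mul' := map_mul Θ
      map_add' := map_add Θ
      commutes' := fun k => hΘr k (hFle k.2) }
  have h3 := Algebra.trace_eq_of_algEquiv e (x ^ j / (y * δ w))
  have h4 : e (x ^ j / (y * δ w)) = - (x ^ j / (y * δ w)) := by
    change Θ (x ^ j / (y * δ w)) = _
    rw [map_div₀, map_pow, map_mul, hΘx, hΘy, hΘr _ (der_range δ hδ (hFle hw)), neg_mul, div_neg]
  rw [h4, map_neg] at h3
  apply hj
  have h5 : (2 : F) * Algebra.trace F K (x ^ j / (y * δ w)) = 0 := by linear_combination -h3
  exact (mul_eq_zero.1 h5).resolve_left two_ne_zero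

/-- The chain rule. -/
theorem chain (h : HPencil g l x y f) (lam : IntermediateField.adjoin ℂ {l} →ₐ[ℂ] N)
    (σ : K →ₐ[ℂ] N) (hσ : ∀ e : IntermediateField.adjoin ℂ {l}, σ e = lam e)
    (δ : Derivation (IntermediateField.adjoin ℂ {l}) K K) (hδ : δ x = 1)
    (D : Derivation ℤ N N) (hD : ∀ e, D (lam e) = 0) (k : K) :
    D (σ k) = σ (δ k) * D (σ x) := by
  haveI : CharZero N := charZero_of_injective_algebraMap (algebraMap ℂ N).injective
  have hbase : ∀ e ∈ IntermediateField.adjoin ℂ {l}, D (σ e) = σ (δ e) * D (σ x) := by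
    intro e he
    have h1 := hσ ⟨e, he⟩
    change σ e = _ at h1
    rw [h1, hD, der_base δ he, map_zero, zero_mul]
  have hadd : ∀ a b, D (σ a) = σ (δ a) * D (σ x) → D (σ b) = σ (δ b) * D (σ x) →
      D (σ (a + b)) = σ (δ (a + b)) * D (σ x) := by
    intro a b ha hb
    rw [map_add, map_add, map_add, map_add, ha, hb]
    ring
  have hmul : ∀ a b, D (σ a) = σ (δ a) * D (σ x) → D (σ b) = σ (δ b) * D (σ x) →
      D (σ (a * b)) = σ (δ (a * b)) * D (σ x) := by
    intro a b ha hb
    rw [map_mul, Derivation.leibniz, Derivation.leibniz, ha, hb]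
    simp only [smul_eq_mul, map_add, map_mul]
    ring
  have hinv : ∀ a, D (σ a) = σ (δ a) * D (σ x) → D (σ a⁻¹) = σ (δ a⁻¹) * D (σ x) := by
    intro a ha
    rw [map_inv₀, Derivation.leibniz_inv, Derivation.leibniz_inv, ha]
    simp only [smul_eq_mul, map_mul, map_neg, map_pow, map_inv₀]
    ring
  have hr : ∀ k ∈ IntermediateField.adjoin ℂ (Set.range ![l, x]),
      D (σ k) = σ (δ k) * D (σ x) := by
    intro k hk
    induction hk using IntermediateField.adjoin_induction with
    | mem a ha =>
      obtain ⟨i, rfl⟩ := ha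
      fin_cases i
      · exact hbase _ (IntermediateField.mem_adjoin_simple_self ℂ l)
      · change D (σ x) = σ (δ x) * D (σ x)
        rw [hδ, map_one, one_mul]
    | algebraMap r => exact hbase _ (IntermediateField.algebraMap_mem _ r)
    | add a b _ _ ha hb => exact hadd a b ha hb
    | inv a _ ha => exact hinv a ha
    | mul a b _ _ ha hb => exact hmul a b ha hb
  have hy0 : y ≠ 0 := by
    rintro rfl
    exact h.notMem (zero_mem _)
  have hy : D (σ y) = σ (δ y) * D (σ x) := by
    have h1 := hr _ h.sq_mem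
    have h2 : σ y ≠ 0 := fun h0 => hy0 (σ.toRingHom.injective (h0.trans (map_zero _).symm))
    rw [sq, map_mul, Derivation.leibniz, Derivation.leibniz] at h1
    simp only [smul_eq_mul, map_add, map_mul] at h1
    apply mul_left_cancel₀ (mul_ne_zero (two_ne_zero (α := N)) h2)
    linear_combination h1
  obtain ⟨a, ha, b, hb, rfl⟩ := h.span k
  exact hadd _ _ (hr a ha) (hmul _ _ (hr b hb) hy)

end

end Vale.Agent.P297.Gg
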